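import Vale.Agent.P195.Final

open CategoryTheory

theorem Vale.Agent.Results.P195.Counterexample.result (k : Type) [Field k]
    (hk : CharZero k ∨ ∃ q : k, q ≠ 0 ∧ ∀ j : ℕ, q ^ (j + 1) ≠ 1) :
    ∃ (A : Type) (_ : Ring A) (_ : Algebra k A) (_ : Module.Finite k A) (M : ModuleCat.{0} A),
      Module.Finite A M ∧
      (∀ i : ℕ, 1 ≤ i → Subsingleton (Abelian.Ext M M i) ∧
        Subsingleton (Abelian.Ext M (ModuleCat.of A A) i)) ∧
      ¬ Module.Projective A M := by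
  obtain ⟨q, h0, hq⟩ : ∃ q : k, q ≠ 0 ∧ ∀ j : ℕ, q ^ (j + 1) ≠ 1 := by
    rcases hk with hk | hk
    · refine ⟨2, two_ne_zero, fun j h => ?_⟩
      have h2 : (2 : ℕ) ^ (j + 1) = 1 := by exact_mod_cast h
      simp at h2
    · exact hk
  obtain ⟨A, i1, i2, i3, M, h1, h2, h3⟩ := Vale.Agent.AR.counterexample h0 hq
  exact ⟨A, i1, i2, i3, M, h1, fun i hi => ⟨subsingleton_of_forall_eq 0 (h2 i hi).1,
    subsingleton_of_forall_eq 0 (h2 i hi).2⟩, fun h => h3 ((IsProjective.iff_projective M).1 h)⟩
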